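import Mathlib
import Vale.Agent.Lib.P279.Defs
import Vale.Agent.Lib.P279.Main

namespace Vale.Agent.Results.P279.A_main

open Vale.Agent.Lib.P279

theorem result (r : ℕ) (hr : ¬ IsSquare r) :
    HoldsVeryGenerally r (fun v =>
      ∀ (d m : ℕ) (F : MvPolynomial (Fin 3) ℂ), 1 ≤ m → 100 * m ≤ r → F ≠ 0 →
        F.IsHomogeneous d → (∀ i, HasMultAtLeast F (v i) m) →
          (∑ _i : Fin r, (m : ℝ)) < d * Real.sqrt r) :=
  main_theorem r hr

end Vale.Agent.Results.P279.A_main
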