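import Vale.Agent.Lib.P279.Uniform

open MvPolynomial

namespace Vale.Agent.Results.P279.B_uniform

open Vale.Agent.Lib.P279 in
/-- For every `r` there is one countable family of nonzero multi-homogeneous polynomials such that,
at every tuple of `r` points of the plane outside their zero sets, every nonzero form `F` of degree
`d` and all multiplicities `m i ≤ mult_(v i) F` satisfy `(r^2 - 100) (∑ m i)^2 ≤ r^3 d^2`. -/
theorem result (r : ℕ) :
    HoldsVeryGenerally r (fun v =>
      ∀ (d : ℕ) (F : MvPolynomial (Fin 3) ℂ) (m : Fin r → ℕ), F ≠ 0 → F.IsHomogeneous d →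
        (∀ i, HasMultAtLeast F (v i) (m i)) →
          ((r : ℝ) ^ 2 - 100) * (∑ i, (m i : ℝ)) ^ 2 ≤ (r : ℝ) ^ 3 * (d : ℝ) ^ 2) :=
  uniform_theorem r

end Vale.Agent.Results.P279.B_uniform
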