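import Vale.Agent.Lib.P279.Lowdeg

open MvPolynomial

namespace Vale.Agent.Results.P279.C_lowdeg

open Vale.Agent.Lib.P279 in
/-- Let `r` be a non-square. There is one countable family of nonzero multi-homogeneous polynomials
such that, at every tuple of `r` points of the plane outside their zero sets, Nagata's strict
inequality `∑ m i < d * √r` holds for every nonzero form `F` of degree `d ≥ 1` and all multiplicities
`m i ≤ mult_(v i) F`, provided that `200 d ≤ r^(3/2)` or that `200 ∑ m i ≤ r^2`. -/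
theorem result (r : ℕ) (hsq : ¬ IsSquare r) :
    HoldsVeryGenerally r (fun v =>
      ∀ (d : ℕ) (F : MvPolynomial (Fin 3) ℂ) (m : Fin r → ℕ), 1 ≤ d → F ≠ 0 → F.IsHomogeneous d →
        (∀ i, HasMultAtLeast F (v i) (m i)) →
        (200 ^ 2 * (d : ℝ) ^ 2 ≤ (r : ℝ) ^ 3 ∨ 200 * (∑ i, (m i : ℝ)) ≤ (r : ℝ) ^ 2) →
          (∑ i, (m i : ℝ)) < (d : ℝ) * Real.sqrt (r : ℝ)) :=
  lowdeg_theorem r hsq

end Vale.Agent.Results.P279.C_lowdeg
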